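import Vale.Agent.P183.R2.H139.Port
import Vale.Agent.P183.R2.H139.Part2
import Vale.Agent.P183.R2.H332.Eyed2

/-!
Gluing congruence lattices of finite algebras along a ladder, and planar distributive lattices
with eyes.
-/

namespace Vale.Agent.Results.P183.LadderGluing

open Vale.Agent.P183 Vale.Agent.P183.R2.H332

theorem result :
    -- (1) a ladder of congruence lattices of finite unary algebras glued by charts
    (∀ (L : Type) [Lattice L] (k : ℕ) (S : Ladder L k) (X : Fin (k + 1) → Type)
      [∀ i, Finite (X i)] [∀ i, Nonempty (X i)] (M : ∀ i, Set (X i → X i))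
      (f : ∀ i, Set.Icc (S.a i) (S.b i) ≃o R2.H139.UCon (M i)),
      (∀ i : Fin k, R2.H139.Glued (f i.castSucc) (f i.succ)) → Representable L) ∧
    -- (2) the blocks are distributive, or congruence lattices of finite semilattices, or lattices of
    -- all equivalence relations on finite sets, or have at most five elements; each overlap is an
    -- edge, or an arbitrary overlap of two lattices of equivalence relations
    (∀ (L : Type) [Lattice L] (k : ℕ) (S : Ladder L k),
      (∀ i, R2.H139.IsDistr (S.a i) (S.b i) ∨ R2.H139.IsSemiCon (S.a i) (S.b i) ∨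
        R2.H139.IsPart (S.a i) (S.b i) ∨ (Set.Icc (S.a i) (S.b i)).encard ≤ 5) →
      (∀ i : Fin k, S.a i.succ ⋖ S.b i.castSucc ∨
        (R2.H139.IsPart (S.a i.castSucc) (S.b i.castSucc) ∧
          R2.H139.IsPart (S.a i.succ) (S.b i.succ))) →
      Representable L) ∧
    -- (3) the overlaps are edges, the blocks are lattices of submodules of finite modules over
    -- finite commutative rings, the two simple modules of each overlap have the same size
    (∀ (L : Type) [Lattice L] (k : ℕ) (S : Ladder L k),
      (∀ i : Fin k, S.a i.succ ⋖ S.b i.castSucc) → ∀ (R N : Fin (k + 1) → Type)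
      [∀ i, CommRing (R i)] [∀ i, Finite (R i)] [∀ i, AddCommGroup (N i)]
      [∀ i, Module (R i) (N i)] [∀ i, Finite (N i)]
      (f : ∀ i, Set.Icc (S.a i) (S.b i) ≃o Submodule (R i) (N i)),
      (∀ i : Fin k, Nat.card (N i.castSucc ⧸ f i.castSucc
          ⟨S.a i.succ, S.mono_a Fin.castSucc_lt_succ.le, S.overlap i⟩) =
        Nat.card (f i.succ ⟨S.b i.castSucc, S.overlap i, S.mono_b Fin.castSucc_lt_succ.le⟩)) →
      Representable L) ∧
    -- (4) the overlaps are edges, the blocks come from `r`-groups, or have length two and a prime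
    -- number `p` plus one of atoms, `p = 1` modulo `r`
    (∀ (L : Type) [Lattice L] (k : ℕ) (S : Ladder L k) (r : ℕ), r.Prime →
      (∀ i : Fin k, S.a i.succ ⋖ S.b i.castSucc) →
      (∀ i, (∃ (G : Type) (_ : Group G) (_ : Finite G) (H : Subgroup G), IsPGroup r G ∧
          Nonempty (Set.Icc (S.a i) (S.b i) ≃o Set.Ici H)) ∨
        ∃ p : ℕ, p.Prime ∧ r ∣ p - 1 ∧ IsAntichain (· ≤ ·) (Set.Ioo (S.a i) (S.b i)) ∧
          (Set.Ioo (S.a i) (S.b i)).ncard = p + 1 ∧
          ∀ j l : Fin k, j.succ = i → l.castSucc = i → S.b j.castSucc ≠ S.a l.succ) →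
      Representable L) ∧
    -- (5) planar distributive lattices with eyes: the numbers of eyes obey labels of the rows and
    -- columns, or there is at most one eye in a square and the pattern comes from a tree
    (∀ (m n : ℕ) (P : Fin m → Fin n → ℕ) (D : Sublattice (Fin (m + 1) × Fin (n + 1))),
      (∀ i, ∃ j, (i, j) ∈ D) → (∀ j, ∃ i, (i, j) ∈ D) →
      ((∃ (ι : Type) (_ : Finite ι) (x : Fin m → ι) (y : Fin n → ι) (N : ι → ℕ),
          (∀ l, IsPrimePow (N l + 1)) ∧
            ∀ i j, (x i = y j → P i j = N (x i)) ∧ (x i ≠ y j → P i j = 0)) ∨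
        ∃ (V : Type) (_ : Finite V) (_ : Nonempty V) (T : EdgeTree m n V),
          ∀ i j, (T.Link i j → P i j = 1) ∧ (¬ T.Link i j → P i j = 0)) →
      Representable {X : Eyed m n P // X.Inside (D : Set (Fin (m + 1) × Fin (n + 1)))}) :=
  ⟨fun _ _ _ S X _ _ M f h => R2.H139.glued_ladder S X M f h,
    fun _ _ _ S hB he => R2.H139.order_ladder6 S hB he,
    fun _ _ _ S he R N _ _ _ _ _ f hq => R2.H139.mod_ladder S he R N f hq,
    fun _ _ _ S _ hr he hB => R2.H139.mixed_ladder S hr he hB,
    fun m n P D h1 h2 h => by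
      rcases h with ⟨ι, _, x, y, N, hN, hP⟩ | ⟨V, _, _, T, hP⟩
      · exact Eyed.labelled P x y N hN (fun i j => (hP i j).1) (fun i j => (hP i j).2) D h1 h2
      · exact Eyed.tree T (fun i j => (hP i j).1) (fun i j => (hP i j).2) D h1 h2⟩

end Vale.Agent.Results.P183.LadderGluing
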