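import Mathlib
import Vale.Agent.P183.R2.H668.Flags
import Vale.Agent.P183.R2.H668.Asym
import Vale.Agent.P183.R2.H668.KW.Asm
import Vale.Agent.P183.R2.H668.KW.Rows

/-!
The number of representable lattices with `n` elements, compared with the number of all lattices
with `n` elements.
-/

namespace Vale.Agent.Results.P183.ManyRepresentable

open Vale.Agent.P183

/-- There is `c > 0` such that for large `n` there are at least `2 ^ (n ^ (3/2) / 400)` finite
algebras whose congruence lattices have exactly `n` elements and are pairwise not isomorphic, and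
at least `a ^ c` of them if there are `a` pairwise not isomorphic lattices with `n` elements. -/
theorem result : ∃ c : ℝ, 0 < c ∧ ∃ n₀ : ℕ, ∀ n : ℕ, n₀ ≤ n →
    ∃ (ι : Type) (_ : Fintype ι) (A : ι → FiniteAlgebra),
      (∀ i, Nat.card (A i).Con = n) ∧
      (∀ i j, Nonempty ((A i).Con ≃o (A j).Con) → i = j) ∧
      (2 : ℝ) ^ ((n : ℝ) ^ (3 / 2 : ℝ) / 400) ≤ Fintype.card ι ∧
      ∀ (κ : Type) [Fintype κ] (L : κ → Type) [∀ k, Lattice (L k)],
        (∀ k, Nat.card (L k) = n) →
        (∀ i j, Nonempty (L i ≃o L j) → i = j) →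
        (Fintype.card κ : ℝ) ^ c ≤ Fintype.card ι := by
  obtain ⟨c, hc, h6⟩ := R2.H668.KW.compare R2.H668.KW.rowB' R2.H668.KW.rowC'
  obtain ⟨n₀, h₀⟩ := R2.H668.exists_threshold
  refine ⟨c, hc, max n₀ 34, fun n hn => ?_⟩
  obtain ⟨p, hp, h1, h2⟩ := R2.H668.exists_prime_size n ((le_max_right _ _).trans hn)
  have : Fact p.Prime := ⟨hp⟩
  obtain ⟨ι, hι, A, h3, h4, h5⟩ := R2.H668.many_of_prime p n h1
  have h7 := h₀ n ((le_max_left _ _).trans hn) p h2 _ h5
  exact ⟨ι, hι, A, h3, h4, h7, fun κ _ L _ hL hiso =>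
    h6 n _ (le_trans (by norm_num) ((le_max_right _ _).trans hn)) h7 κ L hL hiso⟩

end Vale.Agent.Results.P183.ManyRepresentable
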