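import Vale.Agent.P183.R2.H528.Stmt
import Vale.Agent.P183.R2.H528.Auto
import Vale.Agent.P183.R2.H528.Fib2

/-!
Lattices of intermediate rings of finite commutative rings, with operators, and lattices of pairs.
The six clauses are spelled out in the file `Stmt`.
-/

namespace Vale.Agent.Results.P183.RingOperators

open Vale.Agent.P183 Vale.Agent.P183.H528 Matrix

theorem result : Clause1 ∧ Clause2 ∧ Clause3 ∧ Clause4 ∧ Clause5 ∧ Clause6 := by
  refine ⟨?_, ?_, ?_, ?_, ?_, ?_⟩
  · intro R _ _ S
    obtain ⟨e, he⟩ := interval_iso S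
    exact ⟨_, by have := Nat.factorial_pos (Nat.card (Set R)); omega, e, he⟩
  · intro R _ _ S A _ _ A₀ φ
    exact ⟨pair_iso S A₀ φ, ringOp_interval S A₀ φ⟩
  · intro X A _ _ _ _ A₀
    exact ⟨pairEq_interval A₀, eqUp_interval A₀⟩
  · intro G A _ _ _ _ φ H A₀
    exact ⟨up_interval φ H A₀, fun hH => op_interval φ H hH A₀⟩
  · intro L _
    exact ⟨representable_iff L, gi_iff L⟩
  · intro A L _ hL
    exact constPairs_representable A L hL

end Vale.Agent.Results.P183.RingOperators
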