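import Vale.Agent.P183.H750.Fin4

/-!
Intervals in lattices of subrings of finite rings, which contain the corners of a complete
orthogonal family of idempotents and are closed under endomorphisms and antiendomorphisms, and
their special cases (preorders, topologies, nets of ideals, distances, pseudometrics, sublattices
of distributive lattices) are congruence lattices of finite algebras and intervals in subgroup
lattices of finite groups.
-/

namespace Vale.Agent.Results.P183.SubringIntervals

open Vale.Agent.P183 Vale.Agent.P183.H996 Vale.Agent.P183.H750 Vale.Agent.P183.H994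
  Vale.Agent.P183.R2.H409

theorem result :
    -- (1) all rings between two rings `A ≤ B`, which are closed under a set of endomorphisms and
    -- antiendomorphisms, where `A` contains the corners `e B e` of a complete family of
    -- orthogonal idempotents
    (∀ (R X : Type) [Ring R] [Finite R] [Fintype X] (e : X → R), Idems e →
      ∀ F : Set (R →+ R), Endos F → (∀ θ ∈ F, ∀ x, θ (e x) = e x) →
      ∀ A B : Subring R, (∀ x, ∀ b ∈ B, e x * b * e x ∈ A) → A ≤ B → Closed F A → Closed F B →
      Representable (Rings F A B) ∧
        ((∀ θ ∈ F, Function.Bijective θ) → GroupInterval (Rings F A B))) ∧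
    -- (2) preorders, (3) topologies on a finite set
    (∀ (X : Type) [Finite X], AllInt (Preords X) ∧ AllInt (TopologicalSpace X)) ∧
    -- (4) nets, and symmetric nets, of ideals of a finite commutative ring
    (∀ (K X : Type) [CommRing K] [Finite K] [Finite X],
      AllInt (H994.Net K X) ∧ AllInt (SymNet K X)) ∧
    -- (5) distances, and pseudometrics, with values at most `k`
    (∀ (X : Type) [Finite X] (k : ℕ), AllInt (Dst X k) ∧ AllInt (Pseudo X k)) ∧
    -- (6) sublattices of a finite distributive lattice
    (∀ (D : Type) [DistribLattice D] [Finite D], AllInt (Sublattice D)) ∧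
    -- (7) the lattice of all preorders on a finite set with at least three elements is simple
    (∀ (X : Type) [Finite X], 3 ≤ Nat.card X → SimpleLattice (Preords X)) :=
  ⟨fun _ _ _ _ _ e he F hF hFe A B hA hAB hFA hFB => rings_rep e he F hF hFe A B hA hAB hFA hFB,
    fun X _ => ⟨allInt (gi_pres X), allInt (gi_top X)⟩,
    fun K X _ _ _ => ⟨allInt (gi_net K X), allInt (gi_symnet K X)⟩,
    fun X _ k => ⟨allInt (gi_dist X k), allInt (gi_pseudo X k)⟩,
    fun D _ _ => allInt (gi_sublat D),
    fun X _ h3 => simple_pre_card X h3⟩

end Vale.Agent.Results.P183.SubringIntervals
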